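import Vale.Agent.Lib.P170.PersistSubseq
import Vale.Agent.Lib.P170.LimitAlong
import Vale.Agent.Lib.P170.LimitOfTendsto

/-!
P170, hand-in: for `k ≥ 3`, a limiting satisfiability threshold along a sequence of numbers of
variables with bounded consecutive ratios (for example the powers of two) is a limiting threshold
along all numbers of variables, given a sharp threshold sequence as in Friedgut's theorem.
-/

namespace Vale.Agent.Results.P170.BoundedRatioCriterion

open Vale.Agent.Lib.P170

/-- Let `k ≥ 3`, let `r` be a sharp threshold sequence of random `k`-SAT (as provided by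
Friedgut's theorem) and let `ν 0 < ν 1 < ...` be natural numbers with `ν (j + 1) ≤ K ν j`.  If
`α` is a limiting threshold of random `k`-SAT along `n = ν j`, then `α` is a limiting threshold
along all `n`: `P_{k,n}(⌊c n⌋) → 1` for `0 ≤ c < α` and `P_{k,n}(⌊c n⌋) → 0` for `c > α`. -/
theorem result : ∀ (k : ℕ) (r : ℕ → ℝ) (ν : ℕ → ℕ) (K α : ℝ), 3 ≤ k → IsThresholdSeq k r →
    StrictMono ν → (∀ j : ℕ, (ν (j + 1) : ℝ) ≤ K * ν j) →
    LimitingThresholdAlong k ν α → LimitingThresholdAlong k (fun n => n) α := by
  intro k r ν K α hk hr hν hK h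
  obtain ⟨k', rfl⟩ : ∃ k', k = k' + 1 := ⟨k - 1, by omega⟩
  have hk' : 2 ≤ k' := by omega
  exact limitingThreshold_of_tendsto (k' + 1) r hr α h.1
    (threshold_of_bounded_ratio k' hk' r hr ν K α hν hK
      (tendsto_of_limitingAlong (k' + 1) r hr ν hν α h))

end Vale.Agent.Results.P170.BoundedRatioCriterion
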