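import Vale.Agent.Lib.P170.Subseq
import Vale.Agent.Lib.P170.Consecutive
import Vale.Agent.Lib.P170.PersistSubseq
import Vale.Agent.Lib.P170.LimitAlong
import Vale.Agent.Lib.P170.LimitOfTendsto

/-!
P170, hand-in: the regularity properties of sharp threshold sequences of random `k`-SAT and the
two reductions of the limiting threshold to subsequences, in one statement.
-/

namespace Vale.Agent.Results.P170.RegularityAndReductions

open Vale.Agent.Lib.P170

/-- Four facts about the satisfiability threshold of random `k`-SAT.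

(A) For `k ≥ 1`: a limiting threshold along a strictly increasing sequence `ν` of numbers of
variables with `ν (j+1) / ν j → 1` is a limiting threshold along all numbers of variables.

For a sharp threshold sequence `r` (as provided by Friedgut's theorem):

(B) for `k ≥ 2`: `r (n + 1) - r n → 0`, and for every `Λ ≥ 1` and `ε > 0` there is `n0` with
`r n' ≤ (n'/n)^(k-1) * r n + ε` whenever `n0 ≤ n ≤ n' ≤ Λ n`;

(C) for `k ≥ 3`: for every `p ≥ 1` and `ε > 0`, `r (p N) ≥ r N - ε` for all large `N`; for every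
`ε > 0` there is `J` such that for every `Λ`, `r n' ≥ r n - ε` whenever `J n ≤ n' ≤ Λ n` and `n`
is large; and if `r` converges along a strictly increasing `ν` with `ν (j + 1) ≤ K ν j`, then `r`
converges to the same limit;

(D) for `k ≥ 3`: a limiting threshold along a strictly increasing `ν` with `ν (j + 1) ≤ K ν j`
is a limiting threshold along all numbers of variables. -/
theorem result :
    (∀ (k : ℕ) (ν : ℕ → ℕ) (α : ℝ), 1 ≤ k → StrictMono ν →
      Filter.Tendsto (fun j : ℕ => (ν (j + 1) : ℝ) / ν j) Filter.atTop (nhds 1) →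
      LimitingThresholdAlong k ν α → LimitingThresholdAlong k (fun n => n) α) ∧
    (∀ (k : ℕ) (r : ℕ → ℝ), 2 ≤ k → IsThresholdSeq k r →
      Filter.Tendsto (fun n : ℕ => r (n + 1) - r n) Filter.atTop (nhds 0) ∧
      ∀ (Λ ε : ℝ), 1 ≤ Λ → 0 < ε → ∃ n0 : ℕ, ∀ n n' : ℕ, n0 ≤ n → n ≤ n' → (n' : ℝ) ≤ Λ * n →
        r n' ≤ ((n' : ℝ) / n) ^ (k - 1) * r n + ε) ∧
    (∀ (k : ℕ) (r : ℕ → ℝ), 3 ≤ k → IsThresholdSeq k r →
      (∀ (p : ℕ) (ε : ℝ), 1 ≤ p → 0 < ε → ∃ N0 : ℕ, ∀ N : ℕ, N0 ≤ N → r N - ε ≤ r (p * N)) ∧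
      (∀ ε : ℝ, 0 < ε → ∃ J : ℕ, ∀ Λ : ℝ, ∃ n0 : ℕ, ∀ n n' : ℕ, n0 ≤ n → J * n ≤ n' →
        (n' : ℝ) ≤ Λ * n → r n - ε ≤ r n') ∧
      (∀ (ν : ℕ → ℕ) (K α : ℝ), StrictMono ν → (∀ j : ℕ, (ν (j + 1) : ℝ) ≤ K * ν j) →
        Filter.Tendsto (fun j : ℕ => r (ν j)) Filter.atTop (nhds α) →
        Filter.Tendsto r Filter.atTop (nhds α))) ∧
    (∀ (k : ℕ) (r : ℕ → ℝ) (ν : ℕ → ℕ) (K α : ℝ), 3 ≤ k → IsThresholdSeq k r →
      StrictMono ν → (∀ j : ℕ, (ν (j + 1) : ℝ) ≤ K * ν j) →
      LimitingThresholdAlong k ν α → LimitingThresholdAlong k (fun n => n) α) := by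
  refine ⟨?_, ?_, ?_, ?_⟩
  · exact fun k ν α hk hν hratio h => limitingThreshold_of_subseq k hk ν hν hratio α h
  · exact fun k r hk hr => ⟨consecutive_threshold k hk r hr,
      fun Λ ε hΛ hε => threshold_slow_variation k (by omega) r hr Λ ε hΛ hε⟩
  · intro k r hk hr
    obtain ⟨k', rfl⟩ : ∃ k', k = k' + 1 := ⟨k - 1, by omega⟩
    have hk' : 2 ≤ k' := by omega
    exact ⟨fun p ε hp hε => threshold_multiple k' hk' r hr p hp ε hε,
      fun ε hε => threshold_persist k' hk' r hr ε hε,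
      fun ν K α hν hK h => threshold_of_bounded_ratio k' hk' r hr ν K α hν hK h⟩
  · intro k r ν K α hk hr hν hK h
    obtain ⟨k', rfl⟩ : ∃ k', k = k' + 1 := ⟨k - 1, by omega⟩
    have hk' : 2 ≤ k' := by omega
    exact limitingThreshold_of_tendsto (k' + 1) r hr α h.1
      (threshold_of_bounded_ratio k' hk' r hr ν K α hν hK
        (tendsto_of_limitingAlong (k' + 1) r hr ν hν α h))

end Vale.Agent.Results.P170.RegularityAndReductions
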