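import Vale.Agent.Lib.P170.Consecutive

/-!
P170, hand-in: regularity of every sharp threshold sequence of random `k`-SAT, `k ≥ 2`.
-/

namespace Vale.Agent.Results.P170.ThresholdRegularity

open Vale.Agent.Lib.P170

/-- Let `r` be a sharp threshold sequence of random `k`-SAT, `k ≥ 2` (as provided by Friedgut's
theorem).  Then `r (n + 1) - r n → 0`, and for every `Λ ≥ 1` and `ε > 0` there is `n0` with
`r n' ≤ (n'/n)^(k-1) * r n + ε` whenever `n0 ≤ n ≤ n' ≤ Λ n`. -/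
theorem result : ∀ (k : ℕ) (r : ℕ → ℝ), 2 ≤ k → IsThresholdSeq k r →
    Filter.Tendsto (fun n : ℕ => r (n + 1) - r n) Filter.atTop (nhds 0) ∧
    ∀ (Λ ε : ℝ), 1 ≤ Λ → 0 < ε → ∃ n0 : ℕ, ∀ n n' : ℕ, n0 ≤ n → n ≤ n' → (n' : ℝ) ≤ Λ * n →
      r n' ≤ ((n' : ℝ) / n) ^ (k - 1) * r n + ε :=
  fun k r hk hr => ⟨consecutive_threshold k hk r hr,
    fun Λ ε hΛ hε => threshold_slow_variation k (by omega) r hr Λ ε hΛ hε⟩

end Vale.Agent.Results.P170.ThresholdRegularity
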