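import Vale.Agent.Lib.P170.PersistSubseq

/-!
P170, hand-in: sharp threshold sequences of random `k`-SAT, `k ≥ 3`, do not decrease across
scales, and convergence along a subsequence with bounded consecutive ratios implies convergence.
-/

namespace Vale.Agent.Results.P170.UpwardPersistence

open Vale.Agent.Lib.P170

/-- Let `r` be a sharp threshold sequence of random `k`-SAT, `k ≥ 3` (as provided by Friedgut's
theorem).  Then (1) for every `p ≥ 1` and `ε > 0`, `r (p N) ≥ r N - ε` for all large `N`;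
(2) for every `ε > 0` there is `J` such that for every `Λ`, `r n' ≥ r n - ε` whenever
`J n ≤ n' ≤ Λ n` and `n` is large; (3) if `r` converges along a strictly increasing sequence `ν`
with `ν (j + 1) ≤ K ν j`, then `r` converges to the same limit. -/
theorem result : ∀ (k : ℕ) (r : ℕ → ℝ), 3 ≤ k → IsThresholdSeq k r →
    (∀ (p : ℕ) (ε : ℝ), 1 ≤ p → 0 < ε → ∃ N0 : ℕ, ∀ N : ℕ, N0 ≤ N → r N - ε ≤ r (p * N)) ∧
    (∀ ε : ℝ, 0 < ε → ∃ J : ℕ, ∀ Λ : ℝ, ∃ n0 : ℕ, ∀ n n' : ℕ, n0 ≤ n → J * n ≤ n' →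
      (n' : ℝ) ≤ Λ * n → r n - ε ≤ r n') ∧
    (∀ (ν : ℕ → ℕ) (K α : ℝ), StrictMono ν → (∀ j : ℕ, (ν (j + 1) : ℝ) ≤ K * ν j) →
      Filter.Tendsto (fun j : ℕ => r (ν j)) Filter.atTop (nhds α) →
      Filter.Tendsto r Filter.atTop (nhds α)) := by
  intro k r hk hr
  obtain ⟨k', rfl⟩ : ∃ k', k = k' + 1 := ⟨k - 1, by omega⟩
  have hk' : 2 ≤ k' := by omega
  exact ⟨fun p ε hp hε => threshold_multiple k' hk' r hr p hp ε hε,
    fun ε hε => threshold_persist k' hk' r hr ε hε,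
    fun ν K α hν hK h => threshold_of_bounded_ratio k' hk' r hr ν K α hν hK h⟩

end Vale.Agent.Results.P170.UpwardPersistence
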